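import Vale.Agent.P111.R2.H571.Bap2
import Vale.Agent.P111.R2.H571.LK
import Vale.Agent.P111.R2.H571.Lower3
import Vale.Agent.P111.R2.H380.Kernel

/-! P111: above the line `1/q + 1/r = 1/2` the `K`-convexity constant is at most a multiple of the
logarithm of the cotype constants, and this order is best possible. -/

universe u v

open Vale.Agent.P111 Vale.Agent.P111.H571 in
/-- (1) If `1/q + 1/r > 1/2`, then for operators of finite rank from `X` to `Y` and for spaces with
the bounded approximation property the norm of the Rademacher projection is bounded by an explicit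
multiple of the logarithm of the cotype constants. (2) There are finite dimensional spaces, with
cotype constants of the space and of its dual at most `c`, for which this order is attained. -/
theorem Vale.Agent.Results.P111.LogBound.result :
    (∀ q r : ℝ, 2 ≤ q → 2 ≤ r → 1 / 2 < 1 / q + 1 / r →
      (∀ (X : Type u) (Y : Type v) [NormedAddCommGroup X] [NormedSpace ℝ X]
        [NormedAddCommGroup Y] [NormedSpace ℝ Y] (c d : ℝ), 1 ≤ c → 1 ≤ d →
        CotypeWith q c Y → CotypeWith r d (X →L[ℝ] ℝ) →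
        ∀ V : X →L[ℝ] Y, FiniteDimensional ℝ (LinearMap.range (V : X →ₗ[ℝ] Y)) →
          ∀ (n : ℕ) (f : (Fin n → ℤˣ) → X),
          (avg fun ε => ‖V (rad f ε)‖ ^ 2) ^ (1 / 2 : ℝ) ≤
            Real.exp (12 / (1 / q + 1 / r - 1 / 2)) * (1 + Real.log (c * d)) * ‖V‖ *
              (avg fun ε => ‖f ε‖ ^ 2) ^ (1 / 2 : ℝ)) ∧
      (∀ (X : Type u) [NormedAddCommGroup X] [NormedSpace ℝ X] (lam c d : ℝ), 1 ≤ c → 1 ≤ d →
        BAPWith lam X → CotypeWith q c X → CotypeWith r d (X →L[ℝ] ℝ) →
        KConvexWith (lam * (Real.exp (12 / (1 / q + 1 / r - 1 / 2)) *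
          (1 + Real.log (c * d)))) X)) ∧
    (∀ c : ℝ, Real.exp 1 ≤ c →
      ∃ (E : Type) (_ : NormedAddCommGroup E) (_ : NormedSpace ℝ E), FiniteDimensional ℝ E ∧
        (∀ q : ℝ, 2 ≤ q → CotypeWith q c E ∧ CotypeWith q c (E →L[ℝ] ℝ)) ∧
        ∀ K : ℝ, KConvexWith K E → (1 + Real.log (c * c)) / 12 ≤ K) :=
  ⟨fun _ _ hq hr hqr => ⟨log_bound_op2.{u, v} lk H380.kernel hq hr hqr,
    log_bound_bap2.{u} lk H380.kernel hq hr hqr⟩, lower_spaces_of_le⟩
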