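import Vale.Agent.P111.R2.H351.Final

/-! P111: weak forms of the `K`-convexity inequality which are sufficient for spaces whose dual
has finite cotype, and a large class of spaces which satisfy them. -/

universe u v

open Vale.Agent.P111 Vale.Agent.P111.L1 Vale.Agent.P111.R2.H351 in
/-- Let `X` be a real normed space such that `X*` has cotype `r`, or the dual of a space of
cotype `r`. Then `X` has type greater than one iff it satisfies one of several weak forms of the
inequality of `K`-convexity. The class of spaces with the inequality `RadOne` contains the spaces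
of type greater than one and the duals of `C*`-algebras, and it is stable under `L_q(μ; ·)`,
`1 ≤ q < ∞`, finite representability and lattice sums of finite concavity. No approximation
property is used. -/
theorem Vale.Agent.Results.P111.RadClass.result :
    (∀ (X : Type u) [NormedAddCommGroup X] [NormedSpace ℝ X] (r : ℝ),
      (HasCotype r (X →L[ℝ] ℝ) → Equivalences r X) ∧
      (HasCotype r X → Equivalences r (X →L[ℝ] ℝ))) ∧
    (∀ r C : ℝ, 2 ≤ r → Uniform.{u, v} r C) ∧
    Members.{u} ∧ ∀ θ D : ℝ, 0 ≤ θ → θ ≤ 1 → 0 ≤ D → Stability.{u, v} θ D := by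
  refine ⟨fun X _ _ r => ⟨fun h => ?_, fun h => ?_⟩, fun r C hr => uniform_form hr C,
    ⟨fun p₀ T Z _ _ hp hT h => radOne_of_type hp hT h, fun A _ => radOne_cstar A⟩,
    fun θ D hθ0 hθ1 hD => ⟨?_, ?_, ?_⟩⟩
  · obtain ⟨hr, C, hC⟩ := h
    exact equiv_of_lift hr (le_max_right C 0) (lift_of_cotype_dual hr X hC)
  · obtain ⟨hr, C, hC⟩ := h
    exact equiv_of_lift hr (le_max_right C 0) (lift_of_cotype_predual hr X hC)
  · exact fun q _ hq => radOne_Lp q hq hθ0 hθ1 hD
  · exact fun c Z _ _ hc h => radOne_of_local hθ0 hθ1 hD hc h
  · exact fun q M hq hM => radOne_lattice q hq hθ0 hθ1 hD hM
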