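import Vale.Agent.P111.R2.H560.Target

/-! P111: quotients and extensions by subspaces of type greater than one. -/

universe u

open Vale.Agent.P111 Vale.Agent.P111.L1 Vale.Agent.P111.R2.H351 Vale.Agent.P111.R2.H560 in
/-- A Banach space `Z` is a good target if every bounded operator into `Z` from a Banach space
whose dual has finite cotype has type greater than one. Spaces with the inequality `RadOne` for
some `θ < 1` are good targets; subspaces of good targets are good targets; and if `q : Z → Q` is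
onto and `ker q` has type greater than one, then `Z` is a good target iff `Q` is, `Z*` has finite
cotype iff `Q*` has, and `Z` has type greater than one iff `Q` has. If `X*` or `Y` has finite
cotype, then `X`, respectively `Y*`, has type greater than one iff it is a good target. -/
theorem Vale.Agent.Results.P111.RadQuotient.result :
    (∀ (Z : Type u) [NormedAddCommGroup Z] [NormedSpace ℝ Z], RadClass Z → GoodTarget Z) ∧
    (∀ (Z E : Type u) [NormedAddCommGroup Z] [NormedSpace ℝ Z] [NormedAddCommGroup E]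
      [NormedSpace ℝ E] (T : E →L[ℝ] Z) (D : ℝ), (∀ e, ‖e‖ ≤ D * ‖T e‖) →
      GoodTarget Z → GoodTarget E) ∧
    (∀ (Z Q : Type u) [NormedAddCommGroup Z] [NormedSpace ℝ Z] [CompleteSpace Z]
      [NormedAddCommGroup Q] [NormedSpace ℝ Q] [CompleteSpace Q] (q : Z →L[ℝ] Q),
      Function.Surjective q → (∃ s, HasType s (LinearMap.ker (q : Z →ₗ[ℝ] Q))) →
      (GoodTarget Z ↔ GoodTarget Q) ∧
      ((∃ r, HasCotype r (Z →L[ℝ] ℝ)) ↔ ∃ r, HasCotype r (Q →L[ℝ] ℝ)) ∧
      ((∃ p, HasType p Z) ↔ ∃ p, HasType p Q)) ∧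
    (∀ (X : Type u) [NormedAddCommGroup X] [NormedSpace ℝ X] [CompleteSpace X] (r : ℝ),
      (HasCotype r (X →L[ℝ] ℝ) → ((∃ p, HasType p X) ↔ GoodTarget X)) ∧
      (HasCotype r X → ((∃ p, HasType p (X →L[ℝ] ℝ)) ↔ GoodTarget (X →L[ℝ] ℝ)))) := by
  refine ⟨fun Z _ _ h => TS.goodTarget_of_radClass Z h,
    fun Z E _ _ _ _ T D hT h => TS.GoodTarget.of_embed h T hT,
    fun Z Q _ _ _ _ _ _ q hq hs => ?_, fun X _ _ _ r => ⟨fun h => TS.hasType_iff h, fun h => ?_⟩⟩
  · obtain ⟨s, hs⟩ := hs
    exact ⟨TS.goodTarget_iff q hq hs, TS.three_space_iff q hq hs⟩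
  · exact TS.hasType_iff (TS.cotype_bidual h)
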