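import Vale.Agent.P111.R2.H698.Inf

/-! P111: the cotype-cotype conjecture for spaces of functions with bounded substitutions. -/

namespace Vale.Agent.Results.P111.SubstitutionNorms

open Vale.Agent.P111 Vale.Agent.P111.H698

universe u v

/-- A space with dual of finite cotype that contains complemented copies of the functions on
`Ω^n`, `n` large, with bounded substitutions contains `ℓ_∞^M`; consequences. -/
theorem result :
    (∀ (r C D δ : ℝ) (M : ℕ), 2 ≤ r → 0 < δ → ∃ n₀ : ℕ, ∀ n : ℕ, n₀ ≤ n →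
      ∀ (Ω : Type v) [Nontrivial Ω] (X : Type u) [NormedAddCommGroup X] [NormedSpace ℝ X],
        HasCopy Ω n D X → CotypeWith r C (X →L[ℝ] ℝ) → HasLinfty M ((1 + δ) * D) X) ∧
    (∀ (q r C D : ℝ), 2 ≤ q → 2 ≤ r → ∃ n₀ : ℕ, ∀ n : ℕ, n₀ ≤ n →
      ∀ (Ω : Type v) [Nontrivial Ω] (X : Type u) [NormedAddCommGroup X] [NormedSpace ℝ X],
        HasCopy Ω n D X → ¬ (CotypeWith q C X ∧ CotypeWith r C (X →L[ℝ] ℝ))) ∧
    (∀ (Ω : Type v) [Fintype Ω] [Nontrivial Ω] (q r C D : ℝ), 2 ≤ q → 2 ≤ r →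
      ∃ K : ℝ, ∀ (n : ℕ) (E : Type u) [NormedAddCommGroup E] [NormedSpace ℝ E]
        (J : ((Fin n → Ω) → ℝ) ≃ₗ[ℝ] E),
        (∀ σ : (Fin n → Ω) → (Fin n → Ω), IsSub σ → ∀ u, ‖J (u ∘ σ)‖ ≤ D * ‖J u‖) →
        CotypeWith q C E → CotypeWith r C (E →L[ℝ] ℝ) → KConvexWith K E) ∧
    (∀ (q r C D : ℝ), 2 ≤ q → 2 ≤ r →
      ∃ K : ℝ, ∀ (n : ℕ) (E : Type u) [NormedAddCommGroup E] [NormedSpace ℝ E]
        (J : ((Fin n → ℤˣ) → ℝ) ≃ₗ[ℝ] E),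
        (∀ T : ((Fin n → ℤˣ) → ℝ) →ₗ[ℝ] ((Fin n → ℤˣ) → ℝ),
          (∀ u, wiener (T u) ≤ wiener u) → (∀ u, ‖T u‖ ≤ ‖u‖) → ∀ u, ‖J (T u)‖ ≤ D * ‖J u‖) →
        CotypeWith q C E → CotypeWith r C (E →L[ℝ] ℝ) → KConvexWith K E) ∧
    (∀ (Ω : Type v) [Fintype Ω] [Nontrivial Ω] (D : ℝ)
      (X : Type u) [NormedAddCommGroup X] [NormedSpace ℝ X], IsCylSpace Ω D X →
        HasBAP X ∧ ¬ IsKConvex X ∧
        (∀ r : ℝ, HasCotype r (X →L[ℝ] ℝ) → (∀ (M : ℕ) (δ : ℝ), 0 < δ →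
          HasLinfty M ((1 + δ) * D) X) ∧ ∀ q : ℝ, ¬ HasCotype q X)) := by
  refine ⟨fun r C D δ M hr hδ => ?_, fun q r C D hq hr => ?_, fun Ω _ _ q r C D hq hr =>
    kbound Ω q r C D (by linarith) (by linarith), fun q r C D hq hr =>
    kbound_interp q r C D (by linarith) (by linarith), fun Ω _ _ D X _ _ hX => ?_⟩
  · obtain ⟨n₀, h⟩ := linfty_of_copy r C D (D * D) δ (by linarith) hδ M
    exact ⟨n₀, fun n hn Ω _ X _ _ hc => h n hn X (cube_of_copy hc)⟩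
  · obtain ⟨n₀, h⟩ := not_both q r C D (D * D) (by linarith) (by linarith)
    exact ⟨n₀, fun n hn Ω _ X _ _ hc => h n hn X (cube_of_copy hc)⟩
  · obtain ⟨h1, h2, h3⟩ := isCylSpace_bap hX
    refine ⟨h1, h2, fun r hr => ?_⟩
    obtain ⟨hr2, C, hC⟩ := hr
    have hlin : ∀ (M : ℕ) (δ : ℝ), 0 < δ → HasLinfty M ((1 + δ) * D) X := by
      intro M δ hδ
      obtain ⟨n₀, h⟩ := linfty_of_copy r C D (D * D) δ (by linarith) hδ M
      exact h n₀ le_rfl X (cube_of_copy (h3 n₀)) hC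
    refine ⟨hlin, fun q hq => ?_⟩
    obtain ⟨hq2, C', hC'⟩ := hq
    obtain ⟨n₀, h⟩ := not_both q r (max C' C) D (D * D) (by linarith) (by linarith)
    have hmono : ∀ (p A B : ℝ) (Y : Type u) [NormedAddCommGroup Y] [NormedSpace ℝ Y], A ≤ B →
        CotypeWith p A Y → CotypeWith p B Y := by
      intro p A B Y _ _ hAB hY n y
      refine (hY n y).trans ?_
      have h0 : 0 ≤ (avg fun ε : Fin n → ℤˣ => ‖∑ i, sg (ε i) • y i‖ ^ 2) ^ (1 / 2 : ℝ) :=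
        Real.rpow_nonneg (QL.avg_nonneg fun ε => by positivity) _
      exact mul_le_mul_of_nonneg_right hAB h0
    exact h n₀ le_rfl X (cube_of_copy (h3 n₀))
      ⟨hmono q _ _ X (le_max_left _ _) hC', hmono r _ _ (X →L[ℝ] ℝ) (le_max_right _ _) hC⟩

end Vale.Agent.Results.P111.SubstitutionNorms
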